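import Mathlib.LinearAlgebra.ExteriorAlgebra.Basis
import Mathlib.LinearAlgebra.CliffordAlgebra.Contraction
import Mathlib.Analysis.InnerProductSpace.PiL2
import Mathlib.Analysis.InnerProductSpace.Adjoint
import Mathlib.Analysis.Matrix.PosDef

/-!
# The Fock space: exterior algebra with its standard inner product

`Fk ι = EuclideanSpace ℂ (Finset ι)` is the exterior algebra of `ℂ^ι`, the basis vector of `S`
being the exterior product of the `e_i`, `i ∈ S`. `eps v` is exterior multiplication by `v`,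
`iot a` contraction with the linear form `a`, `Lam A` the algebra map induced by the matrix `A`.
-/

open scoped ComplexConjugate
open CliffordAlgebra

noncomputable section

namespace Vale.Agent.P299.H598

variable {ι : Type*} [Fintype ι] [LinearOrder ι]

/-- the Fock space -/
abbrev Fk (ι : Type*) : Type _ := EuclideanSpace ℂ (Finset ι)

/-- the exterior algebra of `ℂ^ι` -/
abbrev Ext (ι : Type*) : Type _ := ExteriorAlgebra ℂ (ι → ℂ)

variable (ι) in
/-- the standard basis of the exterior algebra -/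
def basE : Module.Basis (Finset ι) ℂ (Ext ι) := (Pi.basisFun ℂ ι).ExteriorAlgebra

variable (ι) in
/-- identification of the exterior algebra with the Fock space -/
def toFk : Ext ι ≃ₗ[ℂ] Fk ι := (basE ι).equivFun ≪≫ₗ (WithLp.linearEquiv 2 ℂ (Finset ι → ℂ)).symm

/-- the unit vector of `S` -/
def uv (S : Finset ι) : Fk ι := EuclideanSpace.single S 1

lemma toFk_basE (S : Finset ι) : toFk ι (basE ι S) = uv S := by
  classical
  ext T
  simp only [toFk, uv, LinearEquiv.trans_apply, Module.Basis.equivFun_apply, Module.Basis.repr_self]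
  simp [Finsupp.single_apply, eq_comm]

lemma toFk_symm_uv (S : Finset ι) : (toFk ι).symm (uv S) = basE ι S := by
  rw [LinearEquiv.symm_apply_eq, toFk_basE]

/-- transport of an endomorphism of the exterior algebra -/
def tr : (Ext ι →ₗ[ℂ] Ext ι) →ₗ[ℂ] (Fk ι →L[ℂ] Fk ι) where
  toFun f := LinearMap.toContinuousLinearMap
    ((toFk ι).toLinearMap ∘ₗ f ∘ₗ (toFk ι).symm.toLinearMap)
  map_add' f g := by
    ext x; simp
  map_smul' c f := by
    ext x; simp

lemma tr_apply (f : Ext ι →ₗ[ℂ] Ext ι) (x : Fk ι) : tr f x = toFk ι (f ((toFk ι).symm x)) := rfl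

lemma tr_toFk (f : Ext ι →ₗ[ℂ] Ext ι) (x : Ext ι) : tr f (toFk ι x) = toFk ι (f x) := by
  rw [tr_apply, LinearEquiv.symm_apply_apply]

lemma tr_comp (f g : Ext ι →ₗ[ℂ] Ext ι) : tr (f ∘ₗ g) = tr f ∘L tr g := by
  ext1 x
  simp [tr_apply]

lemma tr_id : tr (LinearMap.id : Ext ι →ₗ[ℂ] Ext ι) = ContinuousLinearMap.id ℂ (Fk ι) := by
  ext1 x
  simp [tr_apply]

/-- exterior multiplication by `v` -/
def eps : (ι → ℂ) →ₗ[ℂ] (Fk ι →L[ℂ] Fk ι) :=
  tr ∘ₗ LinearMap.mul ℂ (Ext ι) ∘ₗ ExteriorAlgebra.ι ℂ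

/-- the linear form with coefficients `a` -/
def dualOf : (ι → ℂ) →ₗ[ℂ] Module.Dual ℂ (ι → ℂ) :=
  LinearMap.mk₂ ℂ (fun a v => ∑ i, a i * v i)
    (fun a b v => by simp [add_mul, Finset.sum_add_distrib])
    (fun c a v => by simp [Finset.mul_sum, mul_assoc])
    (fun a v w => by simp [mul_add, Finset.sum_add_distrib])
    (fun c a v => by simp [Finset.mul_sum, mul_left_comm])

omit [LinearOrder ι] in
@[simp] lemma dualOf_apply (a v : ι → ℂ) : dualOf a v = ∑ i, a i * v i := rfl

/-- contraction with the linear form `a` -/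
def iot : (ι → ℂ) →ₗ[ℂ] (Fk ι →L[ℂ] Fk ι) :=
  tr ∘ₗ (contractLeft (Q := (0 : QuadraticForm ℂ (ι → ℂ)))) ∘ₗ dualOf

/-- the algebra map induced by a matrix -/
def Lam (A : Matrix ι ι ℂ) : Fk ι →L[ℂ] Fk ι :=
  tr (ExteriorAlgebra.map (Matrix.mulVecLin A)).toLinearMap

lemma eps_toFk (v : ι → ℂ) (x : Ext ι) : eps v (toFk ι x) = toFk ι (ExteriorAlgebra.ι ℂ v * x) := by
  simp [eps, tr_toFk]

lemma iot_toFk (a : ι → ℂ) (x : Ext ι) :
    iot a (toFk ι x) = toFk ι (contractLeft (Q := (0 : QuadraticForm ℂ (ι → ℂ))) (dualOf a) x) := by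
  simp [iot, tr_toFk]

lemma Lam_toFk (A : Matrix ι ι ℂ) (x : Ext ι) :
    Lam A (toFk ι x) = toFk ι (ExteriorAlgebra.map (Matrix.mulVecLin A) x) := by
  simp [Lam, tr_toFk]

lemma ext_fk {f g : Fk ι →L[ℂ] Fk ι} (h : ∀ x : Ext ι, f (toFk ι x) = g (toFk ι x)) : f = g := by
  ext1 y
  obtain ⟨x, rfl⟩ := (toFk ι).surjective y
  exact h x

lemma eps_eps (v w : ι → ℂ) : eps v ∘L eps w = -(eps w ∘L eps v) := by
  apply ext_fk
  intro x
  have h := ExteriorAlgebra.ι_add_mul_swap (R := ℂ) v w
  have h2 : ExteriorAlgebra.ι ℂ v * ExteriorAlgebra.ι ℂ w =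
      -(ExteriorAlgebra.ι ℂ w * ExteriorAlgebra.ι ℂ v) := eq_neg_of_add_eq_zero_left h
  simp only [ContinuousLinearMap.comp_apply, neg_apply, eps_toFk, ← mul_assoc]
  rw [h2, neg_mul, map_neg]

lemma iot_iot (a b : ι → ℂ) : iot a ∘L iot b = -(iot b ∘L iot a) := by
  apply ext_fk
  intro x
  simp only [ContinuousLinearMap.comp_apply, neg_apply, iot_toFk]
  rw [contractLeft_comm, map_neg]

lemma iot_eps (a v : ι → ℂ) : iot a ∘L eps v + eps v ∘L iot a =
    (∑ i, a i * v i) • ContinuousLinearMap.id ℂ (Fk ι) := by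
  apply ext_fk
  intro x
  simp only [ContinuousLinearMap.comp_apply, add_apply,
    smul_apply, ContinuousLinearMap.id_apply, iot_toFk, eps_toFk]
  rw [ExteriorAlgebra.ι, contractLeft_ι_mul, map_sub, map_smul, dualOf_apply]
  abel

lemma Lam_one : Lam (1 : Matrix ι ι ℂ) = ContinuousLinearMap.id ℂ (Fk ι) := by
  apply ext_fk
  intro x
  rw [Lam_toFk, Matrix.mulVecLin_one, ExteriorAlgebra.map_id]
  rfl

lemma Lam_mul (A B : Matrix ι ι ℂ) : Lam (A * B) = Lam A ∘L Lam B := by
  apply ext_fk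
  intro x
  rw [ContinuousLinearMap.comp_apply, Lam_toFk, Lam_toFk, Lam_toFk, Matrix.mulVecLin_mul,
    ← ExteriorAlgebra.map_comp_map]
  rfl

lemma Lam_eps (A : Matrix ι ι ℂ) (v : ι → ℂ) : Lam A ∘L eps v = eps (A.mulVec v) ∘L Lam A := by
  apply ext_fk
  intro x
  simp only [ContinuousLinearMap.comp_apply, Lam_toFk, eps_toFk, map_mul,
    ExteriorAlgebra.map_apply_ι, Matrix.mulVecLin_apply]

/-! ### action on the basis -/

lemma basE_singleton (i : ι) : basE ι {i} = ExteriorAlgebra.ι ℂ (Pi.single i (1 : ℂ) : ι → ℂ) := by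
  have hc : ({i} : Finset ι).card = 1 := Finset.card_singleton i
  rw [basE, ExteriorAlgebra.basis_apply_ofCard (Pi.basisFun ℂ ι) hc]
  show ExteriorAlgebra.ιMulti ℂ 1 _ = _
  rw [ExteriorAlgebra.ιMulti_apply]
  simp only [List.ofFn_succ, List.ofFn_zero, List.prod_cons, List.prod_nil, mul_one,
    Function.comp_apply, Pi.basisFun_apply]
  have h0 : Set.powersetCard.ofFinEmbEquiv.symm (Set.powersetCard.ofCard hc) 0 = i := by
    have h1 := (Set.powersetCard.mem_range_ofFinEmbEquiv_symm_iff_mem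
      (Set.powersetCard.ofCard hc) (Set.powersetCard.ofFinEmbEquiv.symm
        (Set.powersetCard.ofCard hc) 0)).1 ⟨0, rfl⟩
    exact Finset.mem_singleton.1 h1
  rw [h0]

lemma basE_empty : basE ι ∅ = 1 := by
  have hc : (∅ : Finset ι).card = 0 := Finset.card_empty
  rw [basE, ExteriorAlgebra.basis_apply_ofCard (Pi.basisFun ℂ ι) hc]
  show ExteriorAlgebra.ιMulti ℂ 0 _ = _
  rw [ExteriorAlgebra.ιMulti_zero_apply]

lemma e_mul_basE_of_mem {i : ι} {S : Finset ι} (h : i ∈ S) :
    ExteriorAlgebra.ι ℂ (Pi.single i (1 : ℂ) : ι → ℂ) * basE ι S = 0 := by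
  rw [← basE_singleton]
  have := ExteriorAlgebra.basis_mul_of_not_disjoint (Pi.basisFun ℂ ι)
    (Set.powersetCard.ofCard (Finset.card_singleton i)) (Set.powersetCard.ofCard (rfl : S.card = _))
    (by simpa using h)
  exact this

lemma e_mul_basE_of_notMem {i : ι} {S : Finset ι} (h : i ∉ S) : ∃ c : ℂ, c * c = 1 ∧ conj c = c ∧
    ExteriorAlgebra.ι ℂ (Pi.single i (1 : ℂ) : ι → ℂ) * basE ι S = c • basE ι (insert i S) := by
  rw [← basE_singleton]
  have hd : Disjoint (Set.powersetCard.ofCard (Finset.card_singleton i) : Finset ι)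
    (Set.powersetCard.ofCard (rfl : S.card = _) : Finset ι) := by simpa using h
  have := ExteriorAlgebra.basis_mul_of_disjoint (Pi.basisFun ℂ ι)
    (Set.powersetCard.ofCard (Finset.card_singleton i)) (Set.powersetCard.ofCard (rfl : S.card = _)) hd
  have h2 : ((Set.powersetCard.disjUnion hd : Set.powersetCard ι _) : Finset ι) = insert i S := by
    ext j
    simp
  rw [h2] at this
  rcases Int.units_eq_one_or (Set.powersetCard.permOfDisjoint hd).sign with h3 | h3
  · refine ⟨1, by simp, by simp, ?_⟩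
    rw [h3, one_smul] at this
    rw [one_smul]
    exact this
  · refine ⟨-1, by simp, by simp, ?_⟩
    rw [h3] at this
    rw [neg_smul, one_smul]
    have h4 : ((-1 : ℤˣ) • (basE ι (insert i S) : Ext ι)) = - basE ι (insert i S) := by
      rw [Units.neg_smul, one_smul]
    exact this.trans h4

/-- contraction with the `i`-th coordinate form -/
lemma contr_basE_of_notMem {i : ι} : ∀ (m : ℕ) (S : Finset ι), S.card = m → i ∉ S →
    contractLeft (Q := (0 : QuadraticForm ℂ (ι → ℂ))) (dualOf (Pi.single i 1)) (basE ι S) = 0 := by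
  intro m
  induction m with
  | zero =>
    intro S hS _
    rw [Finset.card_eq_zero.1 hS, basE_empty]
    exact contractLeft_one
  | succ m ih =>
    intro S hS hi
    obtain ⟨j, T, hj, rfl, hT⟩ := Finset.card_eq_succ.1 hS
    obtain ⟨c, hc, -, h⟩ := e_mul_basE_of_notMem hj
    have h1 : basE ι (insert j T) =
        c • (ExteriorAlgebra.ι ℂ (Pi.single j (1 : ℂ) : ι → ℂ) * basE ι T) := by
      rw [h, smul_smul, hc, one_smul]
    have hij : i ≠ j := fun h' => hi (h' ▸ Finset.mem_insert_self _ _)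
    rw [h1, map_smul, ExteriorAlgebra.ι, contractLeft_ι_mul,
      ih T hT fun h' => hi (Finset.mem_insert_of_mem h')]
    simp [Pi.single_apply, hij.symm]

lemma contr_basE_insert {i : ι} {S : Finset ι} (h : i ∉ S) {c : ℂ} (hc : c * c = 1)
    (he : ExteriorAlgebra.ι ℂ (Pi.single i (1 : ℂ) : ι → ℂ) * basE ι S = c • basE ι (insert i S)) :
    contractLeft (Q := (0 : QuadraticForm ℂ (ι → ℂ))) (dualOf (Pi.single i 1))
      (basE ι (insert i S)) = c • basE ι S := by
  have h1 : basE ι (insert i S) =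
      c • (ExteriorAlgebra.ι ℂ (Pi.single i (1 : ℂ) : ι → ℂ) * basE ι S) := by
    rw [he, smul_smul, hc, one_smul]
  rw [h1, map_smul, ExteriorAlgebra.ι, contractLeft_ι_mul, contr_basE_of_notMem _ S rfl h]
  simp [Pi.single_apply]

lemma inner_uv (S T : Finset ι) : inner ℂ (uv S) (uv T : Fk ι) = if S = T then (1 : ℂ) else 0 := by
  classical
  rw [uv, uv, EuclideanSpace.inner_single_left]
  simp [EuclideanSpace.single_apply]

lemma inner_eps_uv (i : ι) (S T : Finset ι) :
    inner ℂ (eps (Pi.single i 1) (uv S)) (uv T : Fk ι) =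
      inner ℂ (uv S) (iot (Pi.single i 1) (uv T) : Fk ι) := by
  rw [← toFk_basE S, ← toFk_basE T, eps_toFk, iot_toFk]
  by_cases hS : i ∈ S
  · rw [e_mul_basE_of_mem hS]
    by_cases hT : i ∈ T
    · obtain ⟨c, hc, -, h⟩ := e_mul_basE_of_notMem (Finset.notMem_erase i T)
      have := contr_basE_insert (Finset.notMem_erase i T) hc h
      rw [Finset.insert_erase hT] at this
      rw [this, map_smul, toFk_basE, inner_smul_right, inner_uv, if_neg]
      · simp
      · rintro rfl
        exact Finset.notMem_erase i T hS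
    · rw [contr_basE_of_notMem _ T rfl hT]
      simp
  · obtain ⟨c, hc, hc', h⟩ := e_mul_basE_of_notMem hS
    rw [h]
    by_cases hT : i ∈ T
    · obtain ⟨d, hd, -, h'⟩ := e_mul_basE_of_notMem (Finset.notMem_erase i T)
      have := contr_basE_insert (Finset.notMem_erase i T) hd h'
      rw [Finset.insert_erase hT] at this h'
      rw [this, map_smul, map_smul, toFk_basE, toFk_basE, toFk_basE, toFk_basE, inner_smul_left,
        inner_smul_right, inner_uv, inner_uv, hc']
      by_cases hST : insert i S = T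
      · have h2 : S = T.erase i := by rw [← hST, Finset.erase_insert hS]
        rw [if_pos hST, if_pos h2]
        rw [← h2, h] at h'
        have h3 := (basE ι).ne_zero T
        have h4 : (c - d) • basE ι T = 0 := by
          rw [sub_smul, sub_eq_zero, ← h', hST]
        rcases smul_eq_zero.1 h4 with h5 | h5
        · rw [sub_eq_zero.1 h5]
        · exact absurd h5 h3
      · rw [if_neg hST, if_neg, mul_zero, mul_zero]
        rintro rfl
        exact hST (Finset.insert_erase hT)
    · rw [contr_basE_of_notMem _ T rfl hT, map_smul, toFk_basE, toFk_basE, inner_smul_left,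
        inner_uv, if_neg]
      · simp
      · rintro rfl
        exact hT (Finset.mem_insert_self _ _)

end Vale.Agent.P299.H598
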